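import Vale.Agent.P230.Final2
import Vale.Agent.P230.Body

/-!
# P230: `Θ_L(n) ≤ C n (log n)^{1 + log₂ e}`

Every convex body in `ℝ^n` has a lattice covering of density at most `C n (log n)^{1 + log₂ e}`, with an
absolute constant `C`. (Known before: `O(n^2)`; trivial lower bound order `n`.)
-/

open MeasureTheory
open scoped ENNReal

namespace Vale.Agent.Results.P230.RogersGritzmann

/-- A convex body: a compact convex set with nonempty interior. -/
structure IsBody {n : ℕ} (K : Set (Fin n → ℝ)) : Prop where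
  compact : IsCompact K
  convex : Convex ℝ K
  interior_nonempty : (interior K).Nonempty

/-- The lattice covering density `θ_L(K)`: the infimum of `vol K / det Λ` over all full-rank
lattices `Λ ⊆ ℝ^n` with `K + Λ = ℝ^n` (computed in `[0,∞]`). -/
noncomputable def thetaL {n : ℕ} (K : Set (Fin n → ℝ)) : ℝ≥0∞ :=
  ⨅ (Λ : Submodule ℤ (Fin n → ℝ)) (_ : DiscreteTopology Λ) (_ : IsZLattice ℝ Λ)
    (_ : ∀ x : Fin n → ℝ, ∃ v ∈ Λ, x - v ∈ K),
    volume K / ENNReal.ofReal (ZLattice.covolume Λ)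

/-- `Θ_L(n)`: the supremum of `θ_L(K)` over all convex bodies `K ⊆ ℝ^n`. -/
noncomputable def ThetaL (n : ℕ) : ℝ≥0∞ :=
  ⨆ (K : Set (Fin n → ℝ)) (_ : IsBody K), thetaL K

/-- There is an absolute constant `C` such that `Θ_L(n) ≤ C n (log n)^{1 + log₂ e}` for every `n ≥ 2`. -/
theorem result : ∃ C : ℝ, 0 < C ∧ ∀ n : ℕ, 2 ≤ n →
    ThetaL n ≤ ENNReal.ofReal (C * n * Real.log n ^ (1 + 1 / Real.log 2)) := by
  obtain ⟨C, hC, H⟩ := Vale.Agent.P230.main_cover_sharp
    (Vale.Agent.P230.body (Vale.Agent.P230.tree Vale.Agent.P230.pl Vale.Agent.P230.real_lemma)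
      Vale.Agent.P230.pl)
  refine ⟨C, hC, fun n hn => ?_⟩
  refine iSup₂_le fun K hK => ?_
  obtain ⟨A, hA, hcov, hvol⟩ := H n hn K ⟨hK.compact, hK.convex, hK.interior_nonempty⟩
  obtain ⟨Λ, i1, i2, hΛ, hdet⟩ := Vale.Agent.P230.lattice_of_matrix A hA
  have hΛcov : ∀ x : Fin n → ℝ, ∃ v ∈ Λ, x - v ∈ K := by
    intro x
    obtain ⟨z, hz⟩ := hcov x
    exact ⟨_, hΛ z, hz⟩
  have hle : thetaL K ≤ volume K / ENNReal.ofReal (ZLattice.covolume Λ) := by
    unfold thetaL
    refine (iInf_le _ Λ).trans ?_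
    refine (iInf_le _ i1).trans ?_
    refine (iInf_le _ i2).trans ?_
    exact iInf_le _ hΛcov
  refine hle.trans ?_
  rw [hdet]
  have h1 : 0 < |A.det| := abs_pos.2 hA
  have h2 : volume K ≠ ⊤ := hK.compact.measure_lt_top.ne
  rw [ENNReal.div_le_iff_le_mul (Or.inl (by simpa using hA)) (Or.inl ENNReal.ofReal_ne_top),
    ← ENNReal.ofReal_mul (by
      have : 0 ≤ Real.log (n : ℝ) := Real.log_nonneg (by exact_mod_cast (by omega : 1 ≤ n))
      positivity)]
  rw [← ENNReal.ofReal_toReal h2]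
  exact ENNReal.ofReal_le_ofReal hvol

end Vale.Agent.Results.P230.RogersGritzmann
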